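import Vale.Agent.Lib.P154.Neg.HandOff

/-!
Splitting the checks of a subdivision, so that each part of a check is a small computation.
-/

namespace Vale.Agent.Lib.P154.Neg

open Kron

theorem checkCT_s01 {A : Atoms6} {e : PQ} {M : Mat3} {l r : CT} (h1 : checkCT A e (c01 M) l = true)
    (h2 : checkCT A e (c10 M) r = true) : checkCT A e M (.s01 l r) = true := by
  rw [checkCT, h1, h2]
  rfl

theorem checkCT_s02 {A : Atoms6} {e : PQ} {M : Mat3} {l r : CT} (h1 : checkCT A e (c02 M) l = true)
    (h2 : checkCT A e (c20 M) r = true) : checkCT A e M (.s02 l r) = true := by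
  rw [checkCT, h1, h2]
  rfl

theorem checkCT_s12 {A : Atoms6} {e : PQ} {M : Mat3} {l r : CT} (h1 : checkCT A e (c12 M) l = true)
    (h2 : checkCT A e (c21 M) r = true) : checkCT A e M (.s12 l r) = true := by
  rw [checkCT, h1, h2]
  rfl

theorem checkTree_split {k : ℕ} {e : PQ} {b : List (ℤ × ℤ × ℕ)} {i : ℕ} {m : ℤ} {l r : BT}
    (h1 : checkTree k e (b.set i ((b.getD i (0, 1, 1)).1, m, (b.getD i (0, 1, 1)).2.2)) l = true)
    (h2 : checkTree k e (b.set i (m, (b.getD i (0, 1, 1)).2.1, (b.getD i (0, 1, 1)).2.2)) r = true) :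
    checkTree k e b (.split i m l r) = true := by
  rw [checkTree, h1, h2]
  rfl

end Vale.Agent.Lib.P154.Neg
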